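import Vale.Agent.P181.H394.Fin
import Vale.Agent.P181.H231.RowV
import Vale.Agent.P181.H881.RowTH
import Vale.Agent.P181.H616.RowTI
import Vale.Agent.P181.H659.RowAR
import Vale.Agent.P181.H774.RowKEY
import Vale.Agent.P181.H698.RowPM
import Vale.Agent.P181.H911.RowCF
import Vale.Agent.P181.H911.RowCL
import Vale.Agent.P181.H644.RowCO
import Vale.Agent.P181.H203.RowMIX
import Vale.Agent.P181.H318.RowBN
import Vale.Agent.P181.H873.RowREP
import Vale.Agent.P181.H225.RowRES
import Vale.Agent.P181.H423.RowRES1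
import Vale.Agent.P181.H349.RowRES3
import Vale.Agent.P181.H160.RowNUM
import Vale.Agent.P181.H508.RowHW
import Vale.Agent.P181.H877.RowNZ

set_option autoImplicit false

namespace Vale.Agent.P181.H394

open Vale.Agent.P181.H303

/-- The power map is injective for first row at most `K q a`, `C q ^ 3 K ^ 15 log a ≤ a`. -/
theorem fin_all : RowFIN :=
  fin_of (H698.rowPM H231.rowV (H616.rowTI H881.rowTH) H659.rowAR H774.rowKEY)
    H911.rowCF (H203.rowMIX H644.CO.rowCO) H911.rowCL H318.rowBN H873.rowREP
    (H225.rowRES H423.rowRES1 H349.rowRES3) H160.rowNUM H508.rowHW H877.rowNZ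

end Vale.Agent.P181.H394
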