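import Vale.Agent.P181.H303.Spec2

set_option autoImplicit false

open scoped TensorProduct

namespace Vale.Agent.P181.H394

open Vale.Agent.P181 Vale.Agent.P181.H280 Vale.Agent.P181.H303 Finset

lemma AH_mono_c {W : Type*} [AddCommGroup W] [Module ℂ W] {G : Set W} {c c' : ℝ} (h : c ≤ c') :
    AH G c ⊆ AH G c' := by
  rintro x ⟨m, w, g, hg, hw, rfl⟩
  exact ⟨m, w, g, hg, hw.trans h, rfl⟩

lemma zero_mem_AH {W : Type*} [AddCommGroup W] [Module ℂ W] (G : Set W) {c : ℝ} (h : 0 ≤ c) :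
    (0 : W) ∈ AH G c :=
  ⟨0, fun i => i.elim0, fun i => i.elim0, fun i => i.elim0, by simpa using h, by simp⟩

lemma AH_sub {W : Type*} [AddCommGroup W] [Module ℂ W] {G : Set W} {c : ℝ}
    {L : Submodule ℂ W} (h : G ⊆ L) : AH G c ⊆ L := by
  rintro x ⟨m, w, g, hg, hw, rfl⟩
  exact L.sum_mem fun i _ => L.smul_mem _ (h (hg i))

lemma lin_mem {n : ℕ} (u : EE n) : lin u ∈ linS n :=
  Submodule.sum_mem _ fun j _ => Submodule.smul_mem _ _ (X_mem_linS j)

lemma prodpow_mem {A : Type*} [CommRing A] [Algebra ℂ A] (L : Submodule ℂ A) {ι : Type*}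
    (s : Finset ι) (y : ι → A) (hy : ∀ i, y i ∈ L) (α : ι → ℕ) :
    ∏ i ∈ s, y i ^ α i ∈ L ^ (∑ i ∈ s, α i) := by
  classical
  induction s using Finset.induction_on with
  | empty =>
    rw [Finset.prod_empty, Finset.sum_empty, pow_zero]
    exact Submodule.one_le.1 le_rfl
  | insert i s hi ih =>
    rw [Finset.prod_insert hi, Finset.sum_insert hi, pow_add]
    exact Submodule.mul_mem_mul (Submodule.pow_mem_pow L (hy i) _) ih

lemma monoF_sub {n a : ℕ} (x : Fin a → EE n) (R : Finset (Fin a)) (m : ℕ) :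
    MonoF (fun i => lin (x i)) R m ⊆ (linS n ^ m : Submodule ℂ (MvPolynomial (Fin n) ℂ)) := by
  rintro g ⟨α, h0, hs, rfl⟩
  rw [← hs]
  exact prodpow_mem _ _ _ (fun i => lin_mem _) α

/-- Padding of a sum over `Fin J` to a sum over a larger `Fin J'`. -/
lemma sum_pad {W : Type*} [AddCommMonoid W] {J J' : ℕ} (h : J ≤ J') (g : Fin J → W) :
    ∑ j : Fin J', (if hj : (j : ℕ) < J then g ⟨j, hj⟩ else 0) = ∑ j, g j := by
  obtain ⟨d, rfl⟩ := Nat.exists_eq_add_of_le h
  rw [Fin.sum_univ_add]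
  have h1 : ∀ i : Fin J, (if hj : ((Fin.castAdd d i : Fin (J + d)) : ℕ) < J
      then g ⟨(Fin.castAdd d i : Fin (J + d)), hj⟩ else 0) = g i := by
    intro i
    rw [dif_pos (by simp)]
    rfl
  have h2 : ∀ i : Fin d, (if hj : ((Fin.natAdd J i : Fin (J + d)) : ℕ) < J
      then g ⟨(Fin.natAdd J i : Fin (J + d)), hj⟩ else 0) = 0 := by
    intro i
    rw [dif_neg (by simp)]
  rw [Finset.sum_congr rfl fun i _ => h1 i, Finset.sum_congr rfl fun i _ => h2 i,
    Finset.sum_const_zero, add_zero]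

/-- **Row FIN.** -/
theorem fin_of (hPM : RowPM) (hCF : RowCF) (hMIX : RowMIX) (hCL : RowCL) (hBN : RowBN)
    (hREP : ∀ B, RowREP B) (hRES : RowRES) (hNUM : RowNUM) (hHW : RowHW) (hNZ : RowNZ) :
    RowFIN := by
  classical
  obtain ⟨C0, hPM⟩ := hPM
  obtain ⟨C, hC⟩ := hNUM C0
  refine ⟨C, ?_⟩
  intro a q K n hq hK ha hbig lam hlam x hx hx0
  obtain ⟨hsm, hnum⟩ := hC a q K hq hK hbig ha
  by_contra hne
  obtain ⟨l, rfl⟩ := exists_elOf x
  set F := formOf l with hF
  have hqa : 1 ≤ q * a := Nat.mul_pos hq (by omega)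
  obtain ⟨X, hX1, hX0, hXmax, hXs⟩ := hBN a (q * a) n (K * (q * a)) F (by omega) hqa
    (fun u e he he0 => by
      obtain ⟨p, hp, hp'⟩ := hHW a (q * a) n lam l hx u e he he0
      exact ⟨p, hp.trans hlam, hp'⟩) (hNZ a (q * a) n l hne)
  have hXK : ∀ e : EE (n + 1), ‖e‖ = 1 → ∑ i, ‖inner ℂ e (X i)‖ ^ 2 ≤ K := by
    intro e he
    have h1 := hXs e he
    have h2 : (0 : ℝ) < ((q * a : ℕ) : ℝ) := by exact_mod_cast hqa
    have h3 : (((K * (q * a) : ℕ) : ℝ)) = ((q * a : ℕ) : ℝ) * K := by push_cast; ring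
    rw [h3] at h1
    exact le_of_mul_le_mul_left h1 h2
  obtain ⟨cl, hcl, hsep⟩ := hCL a n K X hK hX1 hXK
  set μ := ‖F (fun i => lin (X i) ^ (q * a))‖ with hμ
  -- representation of the clusters
  let B : ℕ → ℕ → ℝ := fun s q => Real.exp (C0 * (q ^ 2 * s ^ 12))
  have hrep : ∀ c : Fin a, ∃ (J : ℕ) (w : Fin J → ℂ) (f : Fin J → MvPolynomial (Fin (n + 1)) ℂ),
      ∑ j, ‖w j‖ ≤ B (2 * K) q ∧
      (∀ j, f j ∈ AH (MonoF (fun i => lin (X i)) (univ.filter (fun i => cl i = c)) a) 1) ∧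
      ∀ (R : Finset (Fin a)) (ρ : Fin a → Fin a),
        Set.BijOn ρ R (univ.filter (fun i => cl i = c) : Finset (Fin a)) →
        ∀ h : Fin a → MvPolynomial (Fin (n + 1)) ℂ,
        ∑ j, w j * F (fun r => if r ∈ R then f j ^ q else h r) =
          F (fun r => if r ∈ R then lin (X (ρ r)) ^ (q * a) else h r) := by
    intro c
    obtain ⟨J, w, f, hw, hf, hid⟩ := hREP B a q n X F
      (fun σ P => formOf_symm l σ P) (univ.filter (fun i => cl i = c)) (by
        intro W _ _ T hT y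
        rcases Nat.eq_zero_or_pos (univ.filter (fun i => cl i = c)).card with h0 | h0
        · have h1 : ∀ P P' : Fin (univ.filter (fun i => cl i = c)).card →
              MvPolynomial (Fin (n + 1)) ℂ, P = P' := by
            intro P P'
            funext i
            exact absurd i.2 (by omega)
          refine ⟨1, fun _ => 1, fun _ => T (fun _ => 0 ^ q), ?_, ?_, ?_⟩
          · intro _
            exact ⟨0, zero_mem_AH _ zero_le_one, rfl⟩
          · simp only [Finset.univ_unique, Finset.sum_const, norm_one, Finset.card_singleton,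
              one_smul]
            apply Real.one_le_exp
            positivity
          · simp only [Finset.univ_unique, Finset.sum_const, Finset.card_singleton, one_smul]
            exact congrArg T (h1 _ _)
        · exact hPM _ q a h0 hq (hsm _ (hcl c)) _ W T hT y)
    refine ⟨J, w, f, hw.trans ?_, hf, hid⟩
    have h1 : ((univ.filter (fun i => cl i = c)).card : ℝ) ≤ ((2 * K : ℕ) : ℝ) := by
      exact_mod_cast hcl c
    simp only [B]
    gcongr
  choose J w f hw hf hid using hrep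
  let JJ : ℕ := univ.sup J
  have hJ : ∀ c, J c ≤ JJ := fun c => Finset.le_sup (Finset.mem_univ c)
  let w' : Fin a → Fin JJ → ℂ := fun c j => if hj : (j : ℕ) < J c then w c ⟨j, hj⟩ else 0
  let f' : Fin a → Fin JJ → MvPolynomial (Fin (n + 1)) ℂ :=
    fun c j => if hj : (j : ℕ) < J c then f c ⟨j, hj⟩ else 0
  have hf' : ∀ c j, f' c j ∈
      AH (MonoF (fun i => lin (X i)) (univ.filter (fun i => cl i = c)) a) 1 := by
    intro c j
    by_cases hj : (j : ℕ) < J c
    · simp only [f', dif_pos hj]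
      exact hf c _
    · simp only [f', dif_neg hj]
      exact zero_mem_AH _ zero_le_one
  have hS : 1 ≤ 2 * K := by omega
  have hδ : (0 : ℝ) ≤ 1 / (16 * (K : ℝ) ^ 2) := by positivity
  have hmix := hMIX a q n (2 * K) X cl (1 / (16 * (K : ℝ) ^ 2)) (by omega) hS hX1 hcl hδ hsep
  set Ω : ℝ := ((q * a : ℕ) + 1 : ℝ) ^ (q * (2 * K)) with hΩ
  set ε : ℝ := ((q * a : ℕ) + 1 : ℝ) ^ (q * (2 * K)) *
    Real.exp (-((a : ℝ) / (2 * K : ℕ) * (1 / (16 * (K : ℝ) ^ 2)) / 4)) with hε
  have hΩ1 : 1 ≤ Ω := by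
    rw [hΩ]
    apply one_le_pow₀
    have : (0 : ℝ) ≤ ((q * a : ℕ) : ℝ) := Nat.cast_nonneg _
    linarith
  have hres := hRES (MvPolynomial (Fin (n + 1)) ℂ) a q (2 * K) JJ F hq
    (fun σ P => formOf_symm l σ P) (linS (n + 1) ^ a)
    (fun g hg => formOf_pow l hx0 g hg) cl hcl (fun i => lin (X i) ^ (q * a)) w' f'
    (B (2 * K) q) Ω ε μ (Real.one_le_exp (by positivity)) hΩ1 (by positivity) (norm_nonneg _)
    (fun c j => AH_sub (monoF_sub X _ a) (hf' c j)) (fun c => by
      have h1 : ∀ j : Fin JJ, ‖w' c j‖ =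
          (if hj : (j : ℕ) < J c then ‖w c ⟨j, hj⟩‖ else 0) := by
        intro j
        by_cases hj : (j : ℕ) < J c
        · simp only [w', dif_pos hj]
        · simp only [w', dif_neg hj, norm_zero]
      rw [Finset.sum_congr rfl fun j _ => h1 j, sum_pad (hJ c) fun j => ‖w c j‖]
      exact hw c) (fun c R ρ hρ h => by
      have h1 : ∀ j : Fin JJ, w' c j * F (fun r => if r ∈ R then f' c j ^ q else h r) =
          (if hj : (j : ℕ) < J c then
            w c ⟨j, hj⟩ * F (fun r => if r ∈ R then f c ⟨j, hj⟩ ^ q else h r) else 0) := by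
        intro j
        by_cases hj : (j : ℕ) < J c
        · simp only [w', f', dif_pos hj]
        · simp only [w', f', dif_neg hj, zero_mul]
      rw [Finset.sum_congr rfl fun j _ => h1 j, sum_pad (hJ c) fun j =>
        w c j * F (fun r => if r ∈ R then f c j ^ q else h r)]
      exact hid c R ρ hρ h)
    (fun g c => Bd (q * a) g c) (fun i T M hM => by
      rw [one_mul]
      exact hM _ (hX1 i)) (fun c j => by
      have h1 := (hmix (fun _ => c) (fun _ => f' c j) (fun _ => hf' c j)).1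
      rw [Finset.prod_const, Finset.card_univ, Fintype.card_fin] at h1
      exact h1) (fun k j hk => (hmix k (fun l => f' (k l) (j (k l))) (fun l => hf' _ _)).2 hk)
    (fun h c hc hb => hCF a (q * a) (n + 1) F μ hXmax h c hc hb)
  have hlt := lt_of_le_of_lt hres (mul_lt_mul_of_pos_left hnum hX0)
  rw [mul_one] at hlt
  exact lt_irrefl _ hlt

end Vale.Agent.P181.H394
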